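import Vale.Agent.Snaky.P2.Tbl

namespace Vale.Agent.Snaky.P2

theorem ck1536 : checkRange tbl 24590 2 = 0 := by decide +kernel
theorem ck1537 : checkRange tbl 24592 5 = 0 := by decide +kernel
theorem ck1538 : checkRange tbl 24597 2 = 0 := by decide +kernel
theorem ck1539 : checkRange tbl 24599 10 = 0 := by decide +kernel
theorem ck1540 : checkRange tbl 24609 2 = 0 := by decide +kernel
theorem ck1541 : checkRange tbl 24611 1 = 0 := by decide +kernel
theorem ck1542 : checkRange tbl 24612 1 = 0 := by decide +kernel
theorem ck1543 : checkRange tbl 24613 1 = 0 := by decide +kernel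

theorem rng24 : RangeOK tbl 24590 24 := RangeOK.join (RangeOK.join (RangeOK.join (RangeOK.of_check ck1536) (RangeOK.of_check ck1537) (Eq.refl 24592)) (RangeOK.join (RangeOK.of_check ck1538) (RangeOK.of_check ck1539) (Eq.refl 24599)) (Eq.refl 24597)) (RangeOK.join (RangeOK.join (RangeOK.of_check ck1540) (RangeOK.of_check ck1541) (Eq.refl 24611)) (RangeOK.join (RangeOK.of_check ck1542) (RangeOK.of_check ck1543) (Eq.refl 24613)) (Eq.refl 24612)) (Eq.refl 24609)

end Vale.Agent.Snaky.P2
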