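import Vale.Agent.Snaky.Cert
import Vale.Agent.Snaky.P2.C0
import Vale.Agent.Snaky.P2.C1
import Vale.Agent.Snaky.P2.C2
import Vale.Agent.Snaky.P2.C3
import Vale.Agent.Snaky.P2.C4
import Vale.Agent.Snaky.P2.C5
import Vale.Agent.Snaky.P2.C6
import Vale.Agent.Snaky.P2.C7
import Vale.Agent.Snaky.P2.C8
import Vale.Agent.Snaky.P2.C9
import Vale.Agent.Snaky.P2.C10
import Vale.Agent.Snaky.P2.C11
import Vale.Agent.Snaky.P2.C12
import Vale.Agent.Snaky.P2.C13
import Vale.Agent.Snaky.P2.C14
import Vale.Agent.Snaky.P2.C15
import Vale.Agent.Snaky.P2.C16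
import Vale.Agent.Snaky.P2.C17
import Vale.Agent.Snaky.P2.C18
import Vale.Agent.Snaky.P2.C19
import Vale.Agent.Snaky.P2.C20
import Vale.Agent.Snaky.P2.C21
import Vale.Agent.Snaky.P2.C22
import Vale.Agent.Snaky.P2.C23
import Vale.Agent.Snaky.P2.C24

namespace Vale.Agent.Snaky.P2

theorem allOK : RangeOK tbl 0 24614 := RangeOK.join (RangeOK.join (RangeOK.join (RangeOK.join (rng0) (RangeOK.join (rng1) (rng2) (Eq.refl 2376)) (Eq.refl 1211)) (RangeOK.join (rng3) (RangeOK.join (rng4) (rng5) (Eq.refl 6004)) (Eq.refl 4850)) (Eq.refl 3732)) (RangeOK.join (RangeOK.join (rng6) (RangeOK.join (rng7) (rng8) (Eq.refl 9631)) (Eq.refl 8572)) (RangeOK.join (rng9) (RangeOK.join (rng10) (rng11) (Eq.refl 13221)) (Eq.refl 12227)) (Eq.refl 10909)) (Eq.refl 7499)) (RangeOK.join (RangeOK.join (RangeOK.join (rng12) (RangeOK.join (rng13) (rng14) (Eq.refl 16636)) (Eq.refl 15727)) (RangeOK.join (rng15) (RangeOK.join (rng16) (rng17) (Eq.refl 19674)) (Eq.refl 18871)) (Eq.refl 17579)) (RangeOK.join (RangeOK.join (rng18) (RangeOK.join (rng19) (rng20) (Eq.refl 22103)) (Eq.refl 21457)) (RangeOK.join (RangeOK.join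 (rng21) (rng22) (Eq.refl 23456)) (RangeOK.join (rng23) (rng24) (Eq.refl 24590)) (Eq.refl 24044)) (Eq.refl 22976)) (Eq.refl 20288)) (Eq.refl 14276)

theorem allSem : ∀ j < 24614, (tbl j).Sem :=
  sem_all (fun i hi => allOK i (Nat.zero_le _) (by omega))

/-- The depth of the statement. -/
def rD : ℕ := 15
/-- The Maker stone. -/
def rM : ℕ := Nat.shiftLeft 1 520
/-- The zone of the root. -/
def rU : ℕ := 1380628327574258617215784073883177387916884616249087923622093439840073395450906235153603509251177192127625604046390581457141136463265516685465656836237651098373186120159319449515933393226261400262605886962907010592734659880044055704385620791403644014481889054013666521780847625755828280666482756398579978371858672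
/-- The references of the root. -/
def rSt : ℕ := 128362729493841805243883091622719843474026103278343379520871204838145303566357390642103445690957943080463925015710387327686960499552471140916937267357039572737048685307983910417173669668503930969820153225526443999164709898620763132199840109351803275404463798652507581901677036291003990463602802380719810593364552022470405160286785567546348265351898429732826063941678921992077018478827304471944607915974084895006589633170443623313400157235131511488963442636340726424244189403466471860837859071752719229905346131545755656428926851187085505725208034562722504242136548124279193620183681922254619888873649523382044672732316779892434998671246349960757200648950124346122787279538784464572189957004210357136247213417451577884864074745357161516654659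
/-- The Breaker replies that stay open. -/
def rH : ℕ := 63316582777114760728069642456192942792907072082181647903567563379780150549809769507918881074357351073480447093643979732967074747004602855081649506236934597303353727050886152192

theorem rootChk : k2Loop tbl 24614 rD rM 0 rU 77 rSt (Nat.xor rU (Nat.land rU (Nat.lor rM rH))) = 0 := by
  decide +kernel

theorem rH_spec : ∀ c, c < 2048 → rH.testBit c = true →
    ((((c % 64 : ℕ) : ℤ) - 8).natAbs + (((c / 64 : ℕ) : ℤ) - 8).natAbs ≤ 1) := by
  decide +kernel

theorem rU_spec : ∀ c, rU.testBit c = true → c < 2048 := by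
  have h : Nat.shiftRight rU 2048 = 0 := by decide +kernel
  intro c hc
  by_contra hge
  have h5 : (Nat.shiftRight rU 2048).testBit (c - 2048) = true := by
    rw [testBit_shiftRight']
    have : c - 2048 + 2048 = c := by omega
    rwa [this]
  rw [h] at h5
  simp at h5

/-- The statement in the frame of the certificate. -/
theorem frameWin (b : Cell) (hb : ¬ ((b.1 - 8).natAbs + (b.2 - 8).natAbs ≤ 1)) : MakerWinsWithin rD {((8 : ℤ), (8 : ℤ))} {b} := by
  have hcs : dec 520 = ((8 : ℤ), (8 : ℤ)) := by decide
  refine root_partial allSem (by decide) rootChk _ ?_ b ?_ ?_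
  · intro c hc
    have : 520 = c := by
      have h1 : rM.testBit c = (Nat.shiftLeft 1 520).testBit c := rfl
      rw [h1, testBit_pow2] at hc
      simpa using hc
    rw [← this, hcs]
    exact Finset.mem_singleton_self _
  · intro c hc hcb
    have : 520 = c := by
      have h1 : rM.testBit c = (Nat.shiftLeft 1 520).testBit c := rfl
      rw [h1, testBit_pow2] at hc
      simpa using hc
    rw [← this, hcs] at hcb
    apply hb
    rw [← hcb]
    simp
  · intro c hc hH hcb
    apply hb
    have h1 := rH_spec c (rU_spec c hc) hH
    rw [← hcb]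
    exact h1

/-- The statement with the first Maker stone at the origin. -/
theorem win (b : Cell) (hb : ¬ (b.1.natAbs + b.2.natAbs ≤ 1)) :
    MakerWinsWithin 15 {((0 : ℤ), (0 : ℤ))} {b} := by
  let g : Iso := ⟨false, 1, 1, ((-8 : ℤ), (-8 : ℤ)), Or.inl rfl, Or.inl rfl⟩
  have h1 := frameWin (b.1 + 8, b.2 + 8) (by simpa using hb)
  have h2 := MakerWinsWithin.image g _ _ _ h1
  simp only [Finset.image_singleton] at h2
  have h3 : g.f ((8 : ℤ), (8 : ℤ)) = ((0 : ℤ), (0 : ℤ)) := by
    simp [g, Iso.f, place]
  have h4 : g.f (b.1 + 8, b.2 + 8) = b := by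
    simp [g, Iso.f, place]
  rw [h3, h4] at h2
  exact h2

end Vale.Agent.Snaky.P2
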